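import Mathlib.Data.Finset.Image
import Mathlib.Data.Int.Basic

/-!
The Snaky achievement game on the board `ℤ × ℤ`: the definitions used in the statement.
-/

namespace Vale.Agent.P062

/-- A cell of the board, indexed by its lower-left corner. -/
abbrev Cell := ℤ × ℤ

/-- The hexomino Snaky. -/
def snaky : Finset Cell := {(0, 0), (1, 0), (2, 0), (3, 0), (3, 1), (4, 1)}

/-- The eight `2 × 2` signed permutation matrices, a matrix `(a, b, c, d)` being
`(x, y) ↦ (a x + b y, c x + d y)`. -/
def signedPerms : Finset (ℤ × ℤ × ℤ × ℤ) :=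
  {(1, 0, 0, 1), (-1, 0, 0, 1), (1, 0, 0, -1), (-1, 0, 0, -1),
   (0, 1, 1, 0), (0, -1, 1, 0), (0, 1, -1, 0), (0, -1, -1, 0)}

/-- An allowed copy of Snaky: `t + R(S)` with `t` a translation and `R` a signed permutation. -/
def IsCopy (C : Finset Cell) : Prop :=
  ∃ t : Cell, ∃ R ∈ signedPerms,
    C = snaky.image fun p =>
      (R.1 * p.1 + R.2.1 * p.2 + t.1, R.2.2.1 * p.1 + R.2.2.2 * p.2 + t.2)

/-- Maker's cells contain an allowed copy. -/
def HasCopy (M : Finset Cell) : Prop := ∃ C, IsCopy C ∧ C ⊆ M

/-- `MakerWinsIn n M B`: Maker owns the cells `M`, Breaker the cells `B`, and it is Maker's turn.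
Maker can force owning an allowed copy with at most `n` further claims: either Maker already owns
a copy, or (if `n > 0`) Maker can claim an unclaimed cell `m` such that, for every unclaimed cell
`b` Breaker may claim next, Maker can force it with at most `n - 1` further claims. -/
def MakerWinsIn : ℕ → Finset Cell → Finset Cell → Prop
  | 0, M, _ => HasCopy M
  | n + 1, M, B =>
    HasCopy M ∨ ∃ m, m ∉ M ∧ m ∉ B ∧ ∀ b, b ∉ insert m M → b ∉ B →
      MakerWinsIn n (insert m M) (insert b B)

end Vale.Agent.P062
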