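import Vale.Agent.P062.Sound
import Mathlib.Tactic.Ring

/-! Symmetry of the game under signed permutations, and the cover check for the first reply. -/

namespace Vale.Agent.P062

/-- The action of a matrix on a cell. -/
def act (R : ℤ × ℤ × ℤ × ℤ) (p : Cell) : Cell :=
  (R.1 * p.1 + R.2.1 * p.2, R.2.2.1 * p.1 + R.2.2.2 * p.2)

/-- The product of two matrices. -/
def matMul (R S : ℤ × ℤ × ℤ × ℤ) : ℤ × ℤ × ℤ × ℤ :=
  (R.1 * S.1 + R.2.1 * S.2.2.1, R.1 * S.2.1 + R.2.1 * S.2.2.2,
   R.2.2.1 * S.1 + R.2.2.2 * S.2.2.1, R.2.2.1 * S.2.1 + R.2.2.2 * S.2.2.2)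

theorem act_matMul (R S : ℤ × ℤ × ℤ × ℤ) (p : Cell) : act R (act S p) = act (matMul R S) p := by
  simp only [act, matMul, Prod.mk.injEq]
  constructor <;> ring

theorem signedPerms_mul : ∀ R ∈ signedPerms, ∀ S ∈ signedPerms, matMul R S ∈ signedPerms := by
  decide

theorem signedPerms_inv : ∀ R ∈ signedPerms, ∃ S ∈ signedPerms, matMul S R = (1, 0, 0, 1) := by
  decide

theorem act_one (p : Cell) : act (1, 0, 0, 1) p = p := by
  simp [act]

theorem act_add (R : ℤ × ℤ × ℤ × ℤ) (p q : Cell) : act R (p + q) = act R p + act R q := by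
  simp only [act, Prod.fst_add, Prod.snd_add, Prod.mk_add_mk, Prod.mk.injEq]
  constructor <;> ring

theorem IsCopy.image {C : Finset Cell} (h : IsCopy C) {R : ℤ × ℤ × ℤ × ℤ} (hR : R ∈ signedPerms) :
    IsCopy (C.image (act R)) := by
  obtain ⟨t, S, hS, rfl⟩ := h
  refine ⟨act R t, matMul R S, signedPerms_mul R hR S hS, ?_⟩
  rw [Finset.image_image]
  refine Finset.image_congr ?_
  intro p _
  simp only [Function.comp]
  have h1 : ((S.1 * p.1 + S.2.1 * p.2 + t.1, S.2.2.1 * p.1 + S.2.2.2 * p.2 + t.2) : Cell)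
      = act S p + t := rfl
  rw [h1, act_add, act_matMul]
  rfl

section
variable {R S : ℤ × ℤ × ℤ × ℤ}

theorem act_left_inv (h : matMul S R = (1, 0, 0, 1)) (p : Cell) : act S (act R p) = p := by
  rw [act_matMul, h, act_one]

theorem act_injective (h : matMul S R = (1, 0, 0, 1)) : Function.Injective (act R) :=
  Function.LeftInverse.injective (act_left_inv h)

/-- The right inverse, from the group structure of the table. -/
theorem signedPerms_inv_right : ∀ R ∈ signedPerms, ∃ S ∈ signedPerms,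
    matMul S R = (1, 0, 0, 1) ∧ matMul R S = (1, 0, 0, 1) := by
  decide

end

theorem MakerWinsIn.image {n : ℕ} {M B : Finset Cell} (h : MakerWinsIn n M B)
    {R : ℤ × ℤ × ℤ × ℤ} (hR : R ∈ signedPerms) :
    MakerWinsIn n (M.image (act R)) (B.image (act R)) := by
  obtain ⟨S, hS, hSR, hRS⟩ := signedPerms_inv_right R hR
  have hinj := act_injective hSR
  have hcopy : ∀ {M : Finset Cell}, HasCopy M → HasCopy (M.image (act R)) := by
    intro M hM
    obtain ⟨C, hC, hCM⟩ := hM
    exact ⟨_, hC.image hR, Finset.image_subset_image hCM⟩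
  induction n generalizing M B with
  | zero => exact hcopy h
  | succ n ih =>
    rcases h with h | ⟨m, hm, hm', h⟩
    · exact Or.inl (hcopy h)
    · refine Or.inr ⟨act R m, ?_, ?_, ?_⟩
      · simpa [hinj.eq_iff] using hm
      · simpa [hinj.eq_iff] using hm'
      · intro b' hb hb'
        have hb'eq : act R (act S b') = b' := act_left_inv hRS b'
        have hb1 : act S b' ∉ insert m M := by
          intro hmem
          apply hb
          rw [← hb'eq, ← Finset.image_insert]
          exact Finset.mem_image_of_mem _ hmem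
        have hb2 : act S b' ∉ B := by
          intro hmem
          apply hb'
          rw [← hb'eq]
          exact Finset.mem_image_of_mem _ hmem
        have := ih (h _ hb1 hb2)
        rw [Finset.image_insert, Finset.image_insert, hb'eq] at this
        exact this

/-- The symmetric form: a win against the reply `act R b` gives a win against the reply `b`. -/
theorem win_of_sym {n : ℕ} {R : ℤ × ℤ × ℤ × ℤ} (hR : R ∈ signedPerms) {b : Cell}
    (h : MakerWinsIn n {(0, 0)} {act R b}) : MakerWinsIn n {(0, 0)} {b} := by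
  obtain ⟨S, hS, hSR, -⟩ := signedPerms_inv_right R hR
  have := h.image hS
  rw [Finset.image_singleton, Finset.image_singleton, act_left_inv hSR] at this
  simpa [act] using this

/-- The cell is not coded in the mask `z`, assumed below `2 ^ 400`. -/
def notCoded (z : ℕ) (p : Cell) : Bool :=
  if -10 ≤ p.1 ∧ p.1 < 10 ∧ -10 ≤ p.2 ∧ p.2 < 10 then
    !z.testBit (((p.2 + 10) * 20 + p.1 + 10).toNat)
  else true

theorem notCoded_spec {z : ℕ} (hz : z < 2 ^ 400) {p : Cell} (h : notCoded z p = true) :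
    ∀ j, z.testBit j = true → cellOf j ≠ p := by
  intro j hj hjp
  have hj400 := testBit_of_lt400 hz hj
  have h1 : (((j % 20 : ℕ) : ℤ) - 10, ((j / 20 : ℕ) : ℤ) - 10) = p := hjp
  subst h1
  have hj1 : ((j % 20 : ℕ) : ℤ) < 20 := by
    have := Nat.mod_lt j (show 20 > 0 by norm_num)
    exact_mod_cast this
  have hj2 : ((j / 20 : ℕ) : ℤ) < 20 := by
    have : j / 20 < 20 := by omega
    exact_mod_cast this
  have hj3 : (0 : ℤ) ≤ ((j % 20 : ℕ) : ℤ) := Int.natCast_nonneg _
  have hj4 : (0 : ℤ) ≤ ((j / 20 : ℕ) : ℤ) := Int.natCast_nonneg _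
  simp only [notCoded] at h
  rw [if_pos (by constructor <;> [omega; constructor <;> [omega; constructor <;> omega]])] at h
  have h2 : ((((j / 20 : ℕ) : ℤ) - 10 + 10) * 20 + (((j % 20 : ℕ) : ℤ) - 10) + 10).toNat = j := by
    omega
  rw [h2, hj] at h
  exact Bool.noConfusion h

theorem good_apply {z N : ℕ} (h : Good N (2 ^ 210) z) (hz : z < 2 ^ 400) {p : Cell}
    (hc : notCoded z p = true) : MakerWinsIn N {(0, 0)} {p} := by
  refine Acc.apply (Acc.of_good h) ?_ (notCoded_spec hz hc)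
  intro j hj
  rw [Nat.testBit_two_pow] at hj
  simpa [eq_comm] using hj

theorem win_of_cover {N : ℕ} {zs : List ℕ} {hard : Finset Cell} {z0 : ℕ} (hz0 : z0 ∈ zs)
    (hgood : ∀ z ∈ zs, Good N (2 ^ 210) z ∧ z < 2 ^ 400)
    (hcover : ∀ a ∈ Finset.range 20, ∀ c ∈ Finset.range 20,
      (((a : ℤ) - 10, (c : ℤ) - 10) : Cell) ∈ hard ∨
        ∃ R ∈ signedPerms, ∃ z ∈ zs, notCoded z (act R ((a : ℤ) - 10, (c : ℤ) - 10)) = true)
    {b : Cell} (hb : b ∉ hard) : MakerWinsIn N {(0, 0)} {b} := by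
  by_cases hon : -10 ≤ b.1 ∧ b.1 < 10 ∧ -10 ≤ b.2 ∧ b.2 < 10
  · obtain ⟨h1, h2, h3, h4⟩ := hon
    have ha : (b.1 + 10).toNat ∈ Finset.range 20 := by
      rw [Finset.mem_range]; omega
    have hc : (b.2 + 10).toNat ∈ Finset.range 20 := by
      rw [Finset.mem_range]; omega
    have hp : ((((b.1 + 10).toNat : ℤ) - 10, ((b.2 + 10).toNat : ℤ) - 10) : Cell) = b := by
      ext <;> simp <;> omega
    have := hcover _ ha _ hc
    rw [hp] at this
    rcases this with h | ⟨R, hR, z, hz, hn⟩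
    · exact absurd h hb
    · exact win_of_sym hR (good_apply (hgood z hz).1 (hgood z hz).2 hn)
  · refine good_apply (hgood z0 hz0).1 (hgood z0 hz0).2 ?_
    simp only [notCoded]
    rw [if_neg hon]

theorem full_of_cover {N : ℕ} {zs : List ℕ} {z0 : ℕ} (hz0 : z0 ∈ zs)
    (hgood : ∀ z ∈ zs, Good N (2 ^ 210) z ∧ z < 2 ^ 400)
    (hcover : ∀ a ∈ Finset.range 20, ∀ c ∈ Finset.range 20,
      (((a : ℤ) - 10, (c : ℤ) - 10) : Cell) ∈ ({(0, 0)} : Finset Cell) ∨
        ∃ R ∈ signedPerms, ∃ z ∈ zs, notCoded z (act R ((a : ℤ) - 10, (c : ℤ) - 10)) = true) :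
    MakerWinsIn (N + 1) ∅ ∅ := by
  refine Or.inr ⟨(0, 0), by simp, by simp, fun b hb _ => ?_⟩
  have h1 : b ∉ ({(0, 0)} : Finset Cell) := by
    simpa using hb
  have := win_of_cover hz0 hgood hcover h1
  simpa using this

end Vale.Agent.P062
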