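import Vale.Agent.P062.Defs
import Mathlib.Tactic.Linarith
import Mathlib.Data.Set.Finite.Basic

/-! Soundness of a checker for proof certificates of the Snaky game, on bit masks. -/

namespace Vale.Agent.P062

theorem MakerWinsIn.succ {n : ℕ} {M B : Finset Cell} (h : MakerWinsIn n M B) :
    MakerWinsIn (n + 1) M B := by
  induction n generalizing M B with
  | zero => exact Or.inl h
  | succ n ih =>
    rcases h with h | ⟨m, hm, hm', h⟩
    · exact Or.inl h
    · exact Or.inr ⟨m, hm, hm', fun b hb hb' => ih (h b hb hb')⟩

theorem MakerWinsIn.mono {n k : ℕ} (hk : n ≤ k) {M B : Finset Cell} (h : MakerWinsIn n M B) :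
    MakerWinsIn k M B := by
  induction k, hk using Nat.le_induction with
  | base => exact h
  | succ k _ ih => exact ih.succ

theorem MakerWinsIn.of_hasCopy {n : ℕ} {M B : Finset Cell} (h : HasCopy M) : MakerWinsIn n M B := by
  cases n with
  | zero => exact h
  | succ n => exact Or.inl h

/-- The cell coded by bit `i` of a mask. -/
def cellOf (i : ℕ) : Cell := (((i % 20 : ℕ) : ℤ) - 10, ((i / 20 : ℕ) : ℤ) - 10)

theorem cellOf_injective : Function.Injective cellOf := by
  intro i j h
  simp only [cellOf, Prod.mk.injEq, sub_left_inj, Nat.cast_inj] at h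
  omega

/-- The meaning of a proof entry: if Maker owns all cells of `m0`, and no cell of `z` belongs to
Breaker, then Maker wins within `n` moves. -/
def Good (n m0 z : ℕ) : Prop :=
  ∀ M B : Finset Cell, (∀ i, m0.testBit i = true → cellOf i ∈ M) →
    (∀ i, z.testBit i = true → cellOf i ∉ B) → MakerWinsIn n M B

theorem Good.mono {n k m0 z : ℕ} (h : Good n m0 z) (hk : n ≤ k) : Good k m0 z :=
  fun M B h1 h2 => (h M B h1 h2).mono hk

/-- There is always an unclaimed cell. -/
theorem exists_fresh (S : Finset Cell) : ∃ p : Cell, p ∉ S := by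
  by_contra hcon
  push Not at hcon
  have : (Set.univ : Set Cell).Finite := S.finite_toSet.subset (fun p _ => hcon p)
  exact Set.infinite_univ this

/-! ### Merging the children of a node -/

/-- The accumulated meaning of a family of children: if Maker owns `mu`, Breaker has none of `zu`,
and Breaker's new cell `b` is not coded in `i`, then Maker wins within `n` moves. -/
def Acc (n mu zu i : ℕ) : Prop :=
  ∀ (M B : Finset Cell) (b : Cell), (∀ j, mu.testBit j = true → cellOf j ∈ M) →
    (∀ j, zu.testBit j = true → cellOf j ∉ B) → (∀ j, i.testBit j = true → cellOf j ≠ b) →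
    MakerWinsIn n M (insert b B)

theorem Acc.of_good {n m0 z : ℕ} (h : Good n m0 z) : Acc n m0 z z := by
  intro M B b h1 h2 h3
  refine h M _ h1 ?_
  intro j hj
  simp only [Finset.mem_insert, not_or]
  exact ⟨h3 j hj, h2 j hj⟩

theorem Acc.add {n mu zu i n' m0 z : ℕ} (h : Acc n mu zu i) (h' : Good n' m0 z) :
    Acc (max n n') (mu ||| m0) (zu ||| z) (i &&& z) := by
  intro M B b h1 h2 h3
  by_cases hb : ∀ j, z.testBit j = true → cellOf j ≠ b
  · have := (Acc.of_good h') M B b
      (fun j hj => h1 j (by simp [Nat.testBit_or, hj]))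
      (fun j hj => h2 j (by simp [Nat.testBit_or, hj])) hb
    exact this.mono (le_max_right _ _)
  · push Not at hb
    obtain ⟨j0, hj0, hj0b⟩ := hb
    have := h M B b
      (fun j hj => h1 j (by simp [Nat.testBit_or, hj]))
      (fun j hj => h2 j (by simp [Nat.testBit_or, hj]))
      (fun j hj hjb => by
        have : j = j0 := cellOf_injective (hjb.trans hj0b.symm)
        subst this
        exact h3 j (by simp [Nat.testBit_and, hj, hj0]) hjb)
    exact this.mono (le_max_left _ _)

/-- A node: Maker claims the cell `m`, and the children cover all replies of Breaker. -/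
theorem Acc.node {n mu zu i m : ℕ} (h : Acc n mu zu i)
    (hchk : (i ||| (mu ||| 1 <<< m)) = (mu ||| 1 <<< m)) :
    Good (n + 1) ((mu ||| 1 <<< m) ^^^ 1 <<< m) (zu ||| 1 <<< m) := by
  intro M B h1 h2
  have bitm : ∀ j, (1 <<< m).testBit j = decide (j = m) := by
    intro j
    rw [Nat.one_shiftLeft, Nat.testBit_two_pow]
    by_cases h : j = m
    · simp [h]
    · simp [h, Ne.symm h]
  have hmem : ∀ j, mu.testBit j = true → j ≠ m → cellOf j ∈ M := by
    intro j hj hjm
    refine h1 j ?_
    simp [Nat.testBit_xor, Nat.testBit_or, hj, bitm, hjm]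
  have hS : ∀ j, i.testBit j = true → j = m ∨ mu.testBit j = true := by
    intro j hj
    have := congrArg (fun x => x.testBit j) hchk
    simp only [Nat.testBit_or, hj, Bool.true_or, bitm] at this
    by_cases hjm : j = m
    · exact Or.inl hjm
    · right
      simpa [hjm] using this.symm
  have hmB : cellOf m ∉ B := h2 m (by simp [Nat.testBit_or, bitm])
  have hzB : ∀ j, zu.testBit j = true → cellOf j ∉ B :=
    fun j hj => h2 j (by simp [Nat.testBit_or, hj])
  by_cases hmM : cellOf m ∈ M
  · -- Maker already owns the cell of `m`: claim any unclaimed cell.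
    obtain ⟨p, hp⟩ := exists_fresh (M ∪ B)
    simp only [Finset.mem_union, not_or] at hp
    refine Or.inr ⟨p, hp.1, hp.2, fun b hb hb' => ?_⟩
    simp only [Finset.mem_insert, not_or] at hb
    refine h _ B b ?_ hzB ?_
    · intro j hj
      rw [Finset.mem_insert]
      right
      by_cases hjm : j = m
      · subst hjm; exact hmM
      · exact hmem j hj hjm
    · intro j hj hjb
      rcases hS j hj with rfl | hmu
      · exact hb.2 (hjb ▸ hmM)
      · by_cases hjm : j = m
        · subst hjm; exact hb.2 (hjb ▸ hmM)
        · exact hb.2 (hjb ▸ hmem j hmu hjm)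
  · refine Or.inr ⟨cellOf m, hmM, hmB, fun b hb hb' => ?_⟩
    simp only [Finset.mem_insert, not_or] at hb
    refine h _ B b ?_ hzB ?_
    · intro j hj
      rw [Finset.mem_insert]
      by_cases hjm : j = m
      · subst hjm; exact Or.inl rfl
      · exact Or.inr (hmem j hj hjm)
    · intro j hj hjb
      rcases hS j hj with rfl | hmu
      · exact hb.1 hjb.symm
      · by_cases hjm : j = m
        · subst hjm; exact hb.1 hjb.symm
        · exact hb.2 (hjb ▸ hmem j hmu hjm)

/-! ### Leaves -/

/-- The mask of orientation `o` of Snaky, with minimal coordinates `0`. -/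
def shapeMask : ℕ → ℕ
  | 0 => 25165839
  | 1 => 3145758
  | 2 => 15728664
  | 3 => 31457283
  | 4 => 2417855097994871682629633
  | 5 => 1208929278381342020599810
  | 6 => 1208926972537233296326658
  | 7 => 2417853945074466589507585
  | _ => 0

/-- The width of orientation `o`. -/
def shapeWidth (o : ℕ) : ℕ := if o < 4 then 5 else 2

/-- The matrix of orientation `o`. -/
def shapeMat : ℕ → ℤ × ℤ × ℤ × ℤ
  | 0 => (1, 0, 0, 1)
  | 1 => (-1, 0, 0, 1)
  | 2 => (1, 0, 0, -1)
  | 3 => (-1, 0, 0, -1)
  | 4 => (0, 1, 1, 0)
  | 5 => (0, -1, 1, 0)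
  | 6 => (0, 1, -1, 0)
  | _ => (0, -1, -1, 0)

/-- The translation of orientation `o` bringing its minimal coordinates to `0`. -/
def shapeT0 : ℕ → ℤ × ℤ
  | 0 => (0, 0)
  | 1 => (4, 0)
  | 2 => (0, 1)
  | 3 => (4, 1)
  | 4 => (0, 0)
  | 5 => (1, 0)
  | 6 => (0, 4)
  | _ => (1, 4)

/-- The finite check on the orientation table: every cell of Snaky, moved by the matrix and the
translation, is coded in the mask. -/
theorem shape_ok : ∀ o ∈ Finset.range 8, shapeMat o ∈ signedPerms ∧ ∀ p ∈ snaky,
    ∃ dx ∈ Finset.range (shapeWidth o), ∃ dy ∈ Finset.range 5,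
      (shapeMask o).testBit (dy * 20 + dx) = true ∧
      ((shapeMat o).1 * p.1 + (shapeMat o).2.1 * p.2 + (shapeT0 o).1,
        (shapeMat o).2.2.1 * p.1 + (shapeMat o).2.2.2 * p.2 + (shapeT0 o).2) = ((dx : ℤ), (dy : ℤ)) := by
  decide

theorem leaf_copy {o k : ℕ} (ho : o < 8) (hw : k % 20 + shapeWidth o ≤ 20) :
    ∃ C, IsCopy C ∧ ∀ p ∈ C, ∃ i, (shapeMask o <<< k).testBit i = true ∧ cellOf i = p := by
  obtain ⟨hR, hcells⟩ := shape_ok o (Finset.mem_range.2 ho)
  set t : Cell := ((shapeT0 o).1 + ((k % 20 : ℕ) : ℤ) - 10, (shapeT0 o).2 + ((k / 20 : ℕ) : ℤ) - 10) with ht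
  refine ⟨_, ⟨t, shapeMat o, hR, rfl⟩, ?_⟩
  intro p hp
  obtain ⟨q, hq, rfl⟩ := Finset.mem_image.1 hp
  obtain ⟨dx, hdx, dy, -, hbit, heq⟩ := hcells q hq
  rw [Finset.mem_range] at hdx
  refine ⟨k + (dy * 20 + dx), ?_, ?_⟩
  · rw [Nat.testBit_shiftLeft]
    simpa using hbit
  · have hlt : k % 20 + dx < 20 := by omega
    have h1 : (k + (dy * 20 + dx)) % 20 = k % 20 + dx := by omega
    have h2 : (k + (dy * 20 + dx)) / 20 = k / 20 + dy := by omega
    simp only [cellOf, h1, h2, ht, Prod.mk.injEq] at heq ⊢
    push_cast
    constructor <;> linarith [heq.1, heq.2]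

/-- A leaf: the copy coded by `o, k` has the only cell `x` missing. -/
theorem leaf_good {o k x : ℕ} (ho : o < 8) (hw : k % 20 + shapeWidth o ≤ 20)
    (hx : (shapeMask o <<< k).testBit x = true) :
    Good 1 ((shapeMask o <<< k) ^^^ 1 <<< x) (shapeMask o <<< k) := by
  intro M B h1 h2
  obtain ⟨C, hC, hCbits⟩ := leaf_copy ho hw
  have bitx : ∀ j, (1 <<< x).testBit j = decide (j = x) := by
    intro j
    rw [Nat.one_shiftLeft, Nat.testBit_two_pow]
    by_cases h : j = x
    · simp [h]
    · simp [h, Ne.symm h]
  have hsub : C ⊆ insert (cellOf x) M := by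
    intro p hp
    obtain ⟨i, hi, rfl⟩ := hCbits p hp
    rw [Finset.mem_insert]
    by_cases hix : i = x
    · subst hix; exact Or.inl rfl
    · right
      refine h1 i ?_
      simp [Nat.testBit_xor, hi, bitx, hix]
  by_cases hxM : cellOf x ∈ M
  · refine MakerWinsIn.of_hasCopy ⟨C, hC, ?_⟩
    rwa [Finset.insert_eq_of_mem hxM] at hsub
  · refine Or.inr ⟨cellOf x, hxM, h2 x hx, fun b _ _ => ?_⟩
    exact ⟨C, hC, hsub⟩

/-! ### The stack machine -/

/-- The stack of entries `(n, m0, z)`. -/
inductive Stk where
  | nil : Stk
  | cons (n m0 z : ℕ) (rest : Stk) : Stk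

/-- All entries of a stack are good. -/
def AllGood : Stk → Prop
  | .nil => True
  | .cons n m0 z r => Good n m0 z ∧ AllGood r

/-- The packed table of orientation masks, 128 bits each. -/
def maskTable : ℕ := 1277339016267633838081583275669051252752963636282435818056801060334781187492517124914589151940846234641414363284999736982621446197719355239017644093857062985596922213375221151481827978596248658640602123650422524934480049139369886965555128454155859990805092270118657724530946483607172280263639055

theorem maskTable_spec : ∀ o ∈ Finset.range 8,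
    Nat.land (Nat.shiftRight maskTable (Nat.mul o 128)) 340282366920938463463374607431768211455 = shapeMask o := by
  decide

/-- Push a leaf `(1, c ^^^ bit x, c)` where `c` is the copy of orientation `o` shifted by `k`. -/
def leafStep (o k x : ℕ) (st : Stk) : Option Stk :=
  let c := Nat.shiftLeft (Nat.land (Nat.shiftRight maskTable (Nat.mul o 128)) 340282366920938463463374607431768211455) k
  let xb := Nat.shiftLeft 1 x
  bif Nat.ble (Nat.add (Nat.mod k 20) (Nat.sub 5 (Nat.mul 3 (Nat.div o 4)))) 20 &&
      Nat.beq (Nat.lor c xb) c then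
    some (.cons 1 (Nat.xor c xb) c st)
  else none

theorem testBit_of_lor_eq {c xb x : ℕ} (h : Nat.lor c xb = c) (hx : xb.testBit x = true) :
    c.testBit x = true := by
  have := congrArg (fun y => y.testBit x) h
  have h2 : (c ||| xb).testBit x = c.testBit x := this
  rw [Nat.testBit_or, hx, Bool.or_true] at h2
  exact h2.symm

theorem leafStep_sound {o k x : ℕ} {st st' : Stk} (ho : o < 8) (hst : AllGood st)
    (h : leafStep o k x st = some st') : AllGood st' := by
  unfold leafStep at h
  have hm := maskTable_spec o (Finset.mem_range.2 ho)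
  simp only [hm] at h
  cases hc : (Nat.ble (Nat.add (Nat.mod k 20) (Nat.sub 5 (Nat.mul 3 (Nat.div o 4)))) 20 &&
      Nat.beq (Nat.lor (Nat.shiftLeft (shapeMask o) k) (Nat.shiftLeft 1 x))
        (Nat.shiftLeft (shapeMask o) k)) with
  | false => rw [hc] at h; simp at h
  | true =>
    rw [hc] at h
    simp only [cond_true, Option.some.injEq] at h
    subst h
    rw [Bool.and_eq_true] at hc
    refine ⟨?_, hst⟩
    have h1 := Nat.le_of_ble_eq_true hc.1
    have h2 := Nat.eq_of_beq_eq_true hc.2
    have hw : k % 20 + shapeWidth o ≤ 20 := by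
      have h3 : shapeWidth o = 5 - 3 * (o / 4) := by
        unfold shapeWidth
        split <;> omega
      rw [h3]
      exact h1
    have hx : (shapeMask o <<< k).testBit x = true := by
      refine testBit_of_lor_eq h2 ?_
      show (1 <<< x).testBit x = true
      rw [Nat.one_shiftLeft, Nat.testBit_two_pow]
      simp
    exact leaf_good ho hw hx

/-- Pop `k` further children from the stack, merge them in the accumulators, and push the node
with cell `m`. -/
def merge (m : ℕ) : ℕ → ℕ → ℕ → ℕ → ℕ → Stk → Option Stk
  | 0, n, mu, zu, i, st =>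
    let b := Nat.shiftLeft 1 m
    let s := Nat.lor mu b
    bif Nat.beq (Nat.lor i s) s then
      some (.cons (Nat.succ n) (Nat.xor s b) (Nat.lor zu b) st)
    else none
  | _ + 1, _, _, _, _, .nil => none
  | k + 1, n, mu, zu, i, .cons n' m0 z st =>
    merge m k (bif Nat.ble n n' then n' else n) (Nat.lor mu m0) (Nat.lor zu z) (Nat.land i z) st

theorem merge_sound {m k n mu zu i : ℕ} {st st' : Stk} (hA : Acc n mu zu i) (hst : AllGood st)
    (h : merge m k n mu zu i st = some st') : AllGood st' := by
  induction k generalizing n mu zu i st with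
  | zero =>
    simp only [merge] at h
    cases hc : Nat.beq (Nat.lor i (Nat.lor mu (Nat.shiftLeft 1 m))) (Nat.lor mu (Nat.shiftLeft 1 m)) with
    | false => rw [hc] at h; simp at h
    | true =>
      rw [hc] at h
      simp only [cond_true, Option.some.injEq] at h
      subst h
      exact ⟨hA.node (Nat.eq_of_beq_eq_true hc), hst⟩
  | succ k ih =>
    cases st with
    | nil => simp [merge] at h
    | cons n' m0 z r =>
      simp only [merge] at h
      refine ih ?_ hst.2 h
      have hA' := hA.add hst.1
      have : (bif Nat.ble n n' then n' else n) = max n n' := by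
        cases hb : Nat.ble n n' with
        | true => simpa using (Nat.le_of_ble_eq_true hb)
        | false =>
          have : ¬ n ≤ n' := fun hle => by simpa [hb] using Nat.ble_eq_true_of_le hle
          simp only [cond_false]
          omega
      rw [this]
      exact hA'

/-- Pop the children of a node and push the node. -/
def nodeStep (m cnt : ℕ) : Stk → Option Stk
  | .nil => none
  | .cons n m0 z st =>
    bif Nat.beq cnt 0 then none else merge m (Nat.pred cnt) n m0 z z st

theorem nodeStep_sound {m cnt : ℕ} {st st' : Stk} (hst : AllGood st)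
    (h : nodeStep m cnt st = some st') : AllGood st' := by
  cases st with
  | nil => simp [nodeStep] at h
  | cons n m0 z r =>
    simp only [nodeStep] at h
    cases hc : Nat.beq cnt 0 with
    | true => rw [hc] at h; simp at h
    | false =>
      rw [hc] at h
      simp only [cond_false] at h
      exact merge_sound (Acc.of_good hst.1) hst.2 h

/-- Execute one token on the stack. Token layout: bit 0 is the kind; a leaf has the orientation
(bits 1-3), the shift `k` (bits 4-12) and the free cell (bits 13-21); a node has the cell (bits 1-9)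
and the number of children (bits 10-16). -/
def step (t : ℕ) (st : Stk) : Option Stk :=
  bif Nat.beq (Nat.land t 1) 0 then
    leafStep (Nat.land (Nat.shiftRight t 1) 7) (Nat.land (Nat.shiftRight t 4) 511)
      (Nat.land (Nat.shiftRight t 13) 511) st
  else nodeStep (Nat.land (Nat.shiftRight t 1) 511) (Nat.land (Nat.shiftRight t 10) 127) st

theorem land7_lt (x : ℕ) : Nat.land x 7 < 8 := by
  have : x &&& 7 < 8 := by
    have := Nat.and_le_right (n := x) (m := 7)
    omega
  exact this

theorem step_sound {t : ℕ} {st st' : Stk} (hst : AllGood st) (h : step t st = some st') :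
    AllGood st' := by
  unfold step at h
  cases hc : Nat.beq (Nat.land t 1) 0 with
  | false =>
    rw [hc] at h
    simp only [cond_false] at h
    exact nodeStep_sound hst h
  | true =>
    rw [hc] at h
    simp only [cond_true] at h
    exact leafStep_sound (land7_lt _) hst h

/-- Run `fuel` tokens of fixed width `22` bits from the Nat `lit`, lowest bits first. -/
def run : ℕ → ℕ → Stk → Option Stk
  | 0, _, st => some st
  | fuel + 1, lit, st =>
    match step (Nat.mod lit 4194304) st with
    | none => none
    | some st' => run fuel (Nat.div lit 4194304) st'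

theorem run_sound {fuel lit : ℕ} {st st' : Stk} (hst : AllGood st)
    (h : run fuel lit st = some st') : AllGood st' := by
  induction fuel generalizing lit st with
  | zero =>
    simp only [run, Option.some.injEq] at h
    exact h ▸ hst
  | succ fuel ih =>
    simp only [run] at h
    cases hs : step (Nat.mod lit 4194304) st with
    | none => rw [hs] at h; simp at h
    | some s =>
      rw [hs] at h
      simp only at h
      exact ih (step_sound hst hs) h

/-- Equality test on stacks. -/
def Stk.beq : Stk → Stk → Bool
  | .nil, .nil => true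
  | .cons n m z r, .cons n' m' z' r' =>
    Nat.beq n n' && Nat.beq m m' && Nat.beq z z' && Stk.beq r r'
  | _, _ => false

theorem Stk.eq_of_beq {a b : Stk} (h : Stk.beq a b = true) : a = b := by
  induction a generalizing b with
  | nil =>
    cases b with
    | nil => rfl
    | cons _ _ _ _ => simp [Stk.beq] at h
  | cons n m z r ih =>
    cases b with
    | nil => simp [Stk.beq] at h
    | cons n' m' z' r' =>
      simp only [Stk.beq, Bool.and_eq_true] at h
      obtain ⟨⟨⟨h1, h2⟩, h3⟩, h4⟩ := h
      rw [Nat.eq_of_beq_eq_true h1, Nat.eq_of_beq_eq_true h2, Nat.eq_of_beq_eq_true h3, ih h4]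

/-- The check of a run against an expected result stack. -/
def runCheck (fuel lit : ℕ) (st st' : Stk) : Bool :=
  match run fuel lit st with
  | none => false
  | some r => Stk.beq r st'

theorem runCheck_sound {fuel lit : ℕ} {st st' : Stk} (hst : AllGood st)
    (h : runCheck fuel lit st st' = true) : AllGood st' := by
  unfold runCheck at h
  cases hr : run fuel lit st with
  | none => rw [hr] at h; simp at h
  | some r =>
    rw [hr] at h
    simp only at h
    rw [← Stk.eq_of_beq h]
    exact run_sound hst hr

/-- Run a list of chunks `(fuel, lit)`. -/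
def runChunks : List (ℕ × ℕ) → Stk → Option Stk
  | [], st => some st
  | c :: cs, st =>
    match run c.1 c.2 st with
    | none => none
    | some st' => runChunks cs st'

theorem runChunks_sound {cs : List (ℕ × ℕ)} {st st' : Stk} (hst : AllGood st)
    (h : runChunks cs st = some st') : AllGood st' := by
  induction cs generalizing st with
  | nil =>
    simp only [runChunks, Option.some.injEq] at h
    exact h ▸ hst
  | cons c cs ih =>
    simp only [runChunks] at h
    cases hr : run c.1 c.2 st with
    | none => rw [hr] at h; simp at h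
    | some s =>
      rw [hr] at h
      simp only at h
      exact ih (run_sound hst hr) h

/-- The check of a list of chunks against an expected result stack. -/
def chunksCheck (cs : List (ℕ × ℕ)) (st st' : Stk) : Bool :=
  match runChunks cs st with
  | none => false
  | some r => Stk.beq r st'

theorem chunksCheck_sound {cs : List (ℕ × ℕ)} {st st' : Stk} (hst : AllGood st)
    (h : chunksCheck cs st st' = true) : AllGood st' := by
  unfold chunksCheck at h
  cases hr : runChunks cs st with
  | none => rw [hr] at h; simp at h
  | some r =>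
    rw [hr] at h
    simp only at h
    rw [← Stk.eq_of_beq h]
    exact runChunks_sound hst hr

/-- The bit of the cell `(x, y)` in a mask, for `-10 ≤ x, y < 10`. -/
theorem cellOf_center : cellOf 210 = (0, 0) := by
  simp [cellOf]

/-- A good entry without Maker's precondition beyond the origin gives the win for Breaker's
replies outside its zone. -/
theorem Acc.apply {n mu zu i : ℕ} (h : Acc n mu zu i) {b : Cell}
    (hmu : ∀ j, mu.testBit j = true → j = 210)
    (hb : ∀ j, i.testBit j = true → cellOf j ≠ b) :
    MakerWinsIn n {(0, 0)} {b} := by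
  have := h {(0, 0)} ∅ b ?_ ?_ hb
  · simpa using this
  · intro j hj
    rw [hmu j hj, cellOf_center]
    simp
  · intro j _
    simp

/-- Merge all the entries of a stack in accumulators. -/
def Stk.acc : ℕ → ℕ → ℕ → ℕ → Stk → ℕ × ℕ × ℕ × ℕ
  | n, mu, zu, i, .nil => (n, mu, zu, i)
  | n, mu, zu, i, .cons n' m z r =>
    Stk.acc (bif Nat.ble n n' then n' else n) (Nat.lor mu m) (Nat.lor zu z) (Nat.land i z) r

theorem Stk.acc_sound {n mu zu i : ℕ} {st : Stk} (hA : Acc n mu zu i) (hst : AllGood st) :
    Acc (Stk.acc n mu zu i st).1 (Stk.acc n mu zu i st).2.1 (Stk.acc n mu zu i st).2.2.1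
      (Stk.acc n mu zu i st).2.2.2 := by
  induction st generalizing n mu zu i with
  | nil => exact hA
  | cons n' m z r ih =>
    simp only [Stk.acc]
    refine ih ?_ hst.2
    have hA' := hA.add hst.1
    have : (bif Nat.ble n n' then n' else n) = max n n' := by
      cases hb : Nat.ble n n' with
      | true => simpa using (Nat.le_of_ble_eq_true hb)
      | false =>
        have : ¬ n ≤ n' := fun hle => by simpa [hb] using Nat.ble_eq_true_of_le hle
        simp only [cond_false]
        omega
    rw [this]
    exact hA'

theorem testBit_of_lt400 {x j : ℕ} (hx : x < 2 ^ 400) (hj : x.testBit j = true) : j < 400 := by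
  by_contra h
  have : x.testBit j = false := Nat.testBit_lt_two_pow (lt_of_lt_of_le hx (Nat.pow_le_pow_right (by norm_num) (not_lt.1 h)))
  rw [this] at hj
  cases hj

end Vale.Agent.P062
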